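import Vale.Agent.P143.Main

set_option autoImplicit false

open MeasureTheory

theorem Vale.Agent.Results.P143.FUSFGiven.result :
    (∀ (Γ : Type*) [Group Γ] (s : Finset Γ), Subgroup.closure (s : Set Γ) = ⊤ →
      ∃ Φ : (Γ → ℝ) → Sym2 Γ → Bool, Measurable Φ ∧
        ∀ μ, Vale.Agent.P143.IsFUSF (SimpleGraph.mulCayley (s : Set Γ)) μ →
          Measure.map Φ (Measure.infinitePi (fun _ : Γ => volume.restrict (Set.Icc (0 : ℝ) 1))) = μ ∧
          ∀ (γ : Γ) (U : Γ → ℝ) (e : Sym2 Γ),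
            Φ (fun v => U (γ⁻¹ * v)) (e.map (fun v => γ * v)) = Φ U e) ∧
    (∃ Φ : (Sym2 ℕ → Bool) → (ℕ → ℝ) → Sym2 ℕ → Bool,
      Measurable (fun q : (Sym2 ℕ → Bool) × (ℕ → ℝ) => Φ q.1 q.2) ∧
      ∀ G : SimpleGraph ℕ, G.Connected → (∀ v, (G.neighborSet v).Finite) →
        ∀ μ, Vale.Agent.P143.IsFUSF G μ →
          Measure.map (Φ (Vale.Agent.P143.code G))
            (Measure.infinitePi (fun _ : ℕ => volume.restrict (Set.Icc (0 : ℝ) 1))) = μ ∧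
          ∀ (π : Equiv.Perm ℕ) (U : ℕ → ℝ) (e : Sym2 ℕ),
            Φ (Vale.Agent.P143.code (G.map π)) (U ∘ π.symm) (e.map π)
              = Φ (Vale.Agent.P143.code G) U e) :=
  ⟨fun Γ _ s hs => Vale.Agent.P143.cayley_factor_given Γ s hs,
    Vale.Agent.P143.universal_factor_given ℕ⟩
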